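import Vale.Agent.P192.R2.H360.R.Defs

set_option linter.all false

/-! Machines over a group: row R3. -/

namespace Vale.Agent.P192.R2.H346.R

open Vale.Agent.P192 Vale.Agent.P192.H437 Vale.Agent.P192.H593 Vale.Agent.P192.R2.H577
open Vale.Agent.P192.R2.H360.R
open scoped Pointwise

universe u v

theorem hop_trans' {G : Type v} {X : Type u} [Group G] [MulAction G X] {S : Set G} {m n : ℕ}
    {a b c : X} (h : hop S m a b) (h' : hop S n b c) : hop S (m + n) a c := by
  obtain ⟨w, h1, h2, h3⟩ := h
  obtain ⟨w', h1', h2', h3'⟩ := h'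
  refine ⟨w' ++ w, ?_, ?_, ?_⟩
  · intro s hs
    rcases List.mem_append.1 hs with h | h
    · exact h1' s h
    · exact h1 s h
  · rw [List.length_append]; omega
  · rw [List.prod_append, mul_smul, h3, h3']

theorem hop_symm' {G : Type v} {X : Type u} [Group G] [MulAction G X] {S : Set G} {m : ℕ}
    {a b : X} (h : hop S m a b) : hop S m b a := by
  obtain ⟨p, hp⟩ := walk_of_hop h
  have h2 := hop_of_walk p.reverse
  rw [SimpleGraph.Walk.length_reverse] at h2
  exact hop_le hp h2

theorem word_near {G : Type v} [Group G] {S : Set G} {H A Q : Type} [Group H] [DecidableEq H]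
    {T : Finset H} {X : Type u} [MulAction G X] {hd : X → H} {tp : X → H → A} {st : X → Q}
    (hL : Loc S T X hd tp st) (p : H) (w : List G) (hw : ∀ s ∈ w, s ∈ S ∨ s⁻¹ ∈ S) (z : X) (k : ℕ)
    (hz : p⁻¹ * hd z ∈ T ^ k) :
    p⁻¹ * hd (w.prod • z) ∈ T ^ (k + w.length) ∧
      ∀ q, p⁻¹ * q ∉ T ^ (k + w.length) → tp (w.prod • z) q = tp z q := by
  induction w with
  | nil => simpa using hz
  | cons s w ih =>
    obtain ⟨h1, h2⟩ := ih fun t ht => hw t (List.mem_cons_of_mem _ ht)
    have hs := hw s List.mem_cons_self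
    rw [List.prod_cons, mul_smul, List.length_cons, ← add_assoc, pow_succ]
    constructor
    · have h3 : p⁻¹ * hd (s • w.prod • z) =
          (p⁻¹ * hd (w.prod • z)) * ((hd (w.prod • z))⁻¹ * hd (s • w.prod • z)) := by group
      rw [h3]
      exact Finset.mul_mem_mul h1 (hL.move _ s hs)
    · intro q hq
      have h4 : tp (s • w.prod • z) q = tp (w.prod • z) q := by
        by_contra hne
        refine hq ?_
        have h3 : p⁻¹ * q = (p⁻¹ * hd (w.prod • z)) * ((hd (w.prod • z))⁻¹ * q) := by group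
        rw [h3]
        exact Finset.mul_mem_mul h1 (hL.write _ s q hs hne)
      rw [h4]
      refine h2 q fun h5 => hq ?_
      rw [← mul_one (p⁻¹ * q)]
      exact Finset.mul_mem_mul h5 hL.one

theorem r3 : R1.{u, v} → R3.{u, v} := by
  intro h1 G _ _ hG S hSf hS H A Q _ _ _ _ T
  classical
  obtain ⟨R, hR⟩ := h1 G hG S hSf hS
  haveI := Fintype.ofFinite A
  haveI := Fintype.ofFinite Q
  refine ⟨(R + 1) * Fintype.card (T × Q × (↥(T ^ (1 + R)) → A)), ?_⟩
  intro X _ _ hd tp st hL x y p hp
  obtain ⟨D, hx, hy, hsub, hlink⟩ := hR X {z | tp z p = tp x p} x y rfl (fun h => hp (Eq.symm h))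
  have hwin : ∀ z ∈ fb S D, (hd z)⁻¹ * p ∈ T := by
    intro z hz
    obtain ⟨s, hs, h | h⟩ := hsub hz
    · exact hL.write z s p hs (fun h' => h.2 (h'.trans h.1))
    · exact hL.write z s p hs (fun h' => h.1 (h'.symm.trans h.2))
  have hwin' : ∀ z ∈ fb S D, p⁻¹ * hd z ∈ T := by
    intro z hz
    have h := hL.inv _ (hwin z hz)
    rwa [mul_inv_rev, inv_inv] at h
  have hagree : ∀ a b, linked S R (fb S D) a b → ∀ q, p⁻¹ * q ∉ T ^ (1 + R) → tp b q = tp a q := by
    intro a b hab q hq
    induction hab with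
    | refl => rfl
    | tail _ hbc ih =>
      obtain ⟨hb, hc, w, hw, hlen, hwc⟩ := hbc
      obtain ⟨-, h2⟩ := word_near hL p w hw _ 1 (by rw [pow_one]; exact hwin' _ hb)
      rw [hwc] at h2
      rw [← ih]
      refine h2 q fun h3 => hq ?_
      exact Finset.pow_subset_pow_right hL.one (by omega) h3
  let f : fb S D → T × Q × (↥(T ^ (1 + R)) → A) := fun z =>
    (⟨p⁻¹ * hd z, hwin' z z.2⟩, st z, fun τ => tp z (p * τ))
  have hf : Function.Injective f := by
    intro a b hab
    have e1 : p⁻¹ * hd a = p⁻¹ * hd b := congrArg (fun t => (t.1 : H)) hab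
    have e2 : st a = st b := congrArg (fun t => t.2.1) hab
    have e3 : (fun τ : ↥(T ^ (1 + R)) => tp a (p * τ)) = fun τ : ↥(T ^ (1 + R)) => tp b (p * (τ : H)) :=
      congrArg (fun t => t.2.2) hab
    refine Subtype.ext (hL.inj _ _ (mul_left_cancel e1) e2 (funext fun q => ?_))
    by_cases hq : p⁻¹ * q ∈ T ^ (1 + R)
    · have h4 := congrFun e3 ⟨p⁻¹ * q, hq⟩
      simpa using h4
    · exact (hagree _ _ (hlink a a.2 b b.2) q hq).symm
  haveI : Finite (fb S D) := Finite.of_injective f hf
  haveI := Fintype.ofFinite (fb S D)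
  have hcard : Fintype.card (fb S D) ≤ Fintype.card (T × Q × (↥(T ^ (1 + R)) → A)) :=
    Fintype.card_le_of_injective f hf
  refine ⟨D, hx, hy, ?_, hwin, ?_⟩
  · have h5 : (fb S D).encard = (Fintype.card (fb S D) : ℕ∞) := by
      rw [← Set.coe_fintypeCard]
    rw [h5]
    norm_cast
    refine hcard.trans ?_
    exact Nat.le_mul_of_pos_left _ (by omega)
  · intro a ha b hb
    let 𝒢 : SimpleGraph (fb S D) := SimpleGraph.fromRel fun a b => hop S R (a : X) b
    have hreach : ∀ a b : X, linked S R (fb S D) a b → ∀ (ha : a ∈ fb S D) (hb : b ∈ fb S D),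
        𝒢.Reachable ⟨a, ha⟩ ⟨b, hb⟩ := by
      intro a b hab ha hb
      induction hab with
      | refl => exact SimpleGraph.Reachable.refl _
      | @tail b c _ hbc ih =>
        refine (ih hbc.1).trans ?_
        by_cases hne : b = c
        · subst hne; exact SimpleGraph.Reachable.refl _
        · refine SimpleGraph.Adj.reachable ?_
          rw [SimpleGraph.fromRel_adj]
          exact ⟨fun h => hne (congrArg Subtype.val h), Or.inl hbc.2.2⟩
    obtain ⟨q, hq⟩ := (hreach a b (hlink a ha b hb) ha hb).exists_isPath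
    have hlen := hq.length_lt
    have hwalk : ∀ (a b : fb S D) (q : 𝒢.Walk a b), hop S (R * q.length) (a : X) b := by
      intro a b q
      induction q with
      | nil => exact ⟨[], by simp, by simp, by simp⟩
      | cons h q ih =>
        rw [SimpleGraph.fromRel_adj] at h
        have h6 : hop S R _ _ := h.2.elim id hop_symm'
        rw [SimpleGraph.Walk.length_cons, mul_add, mul_one, add_comm]
        exact hop_trans' h6 ih
    refine hop_le ?_ (hwalk _ _ q)
    calc R * q.length ≤ (R + 1) * Fintype.card (fb S D) := by gcongr <;> omega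
      _ ≤ _ := by gcongr

end Vale.Agent.P192.R2.H346.R
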