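import Vale.Agent.P192.R2.H360.R.Defs

set_option linter.all false

/-! Machines over a group: row R4. -/

namespace Vale.Agent.P192.R2.H346.R

open Vale.Agent.P192 Vale.Agent.P192.H437 Vale.Agent.P192.H593 Vale.Agent.P192.R2.H577
open Vale.Agent.P192.R2.H360.R
open scoped Pointwise

universe u v

theorem r4 : R2.{u, v} → R3.{u, v} → R4.{u, v} := by
  intro h2 h3 G _ _ hG S hSf hS H A Q _ _ _ _ T
  obtain ⟨K, hK⟩ := h3 G hG S hSf hS H A Q T
  obtain ⟨M, hM⟩ := h2 G hG S hS K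
  refine ⟨M, fun X _ _ hd tp st hL x y P hP hP2 => ?_⟩
  have h4 : ∀ p : P, ∃ D : Set X, x ∈ D ∧ y ∉ D ∧ (fb S D).encard ≤ K ∧
      (∀ z ∈ fb S D, (hd z)⁻¹ * (p : H) ∈ T) := by
    intro p
    obtain ⟨D, h1, h2, h3, h4, -⟩ := hK X hd tp st hL x y p (hP p p.2)
    exact ⟨D, h1, h2, h3, h4⟩
  choose D hx hy hc hw using h4
  have e : Fin P.card ≃ P := P.equivFin.symm
  refine hM X x y P.card (fun i => D (e i)) (fun i => Or.inl ⟨hx _, hy _⟩) (fun i => hc _) ?_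
  intro i j hij
  rw [Set.disjoint_left]
  intro z hz hz'
  have hne : (e i : H) ≠ (e j : H) := fun h => hij (e.injective (Subtype.ext h))
  refine hP2 _ (e i).2 _ (e j).2 hne ?_
  have h5 := hL.inv _ (hw _ z hz)
  have h6 := hw _ z hz'
  have h7 : (e i : H)⁻¹ * (e j : H) = ((hd z)⁻¹ * (e i : H))⁻¹ * ((hd z)⁻¹ * (e j : H)) := by
    group
  rw [h7, pow_two]
  exact Finset.mul_mem_mul h5 h6

end Vale.Agent.P192.R2.H346.R
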